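import Mathlib
import Crest.Agent.Helper7.AUCGame
import Crest.Agent.Helper7.AUCWeakNull
import Crest.Agent.Helper7.AUCTransfer
import Crest.Agent.Helper7.TreeDefs

/-!
# Module S0166-SUMMOD (helper28): the midpoint estimate in an `ℓ²`-sum

* `lp_two_midpoint`: generic statement.  If in every block `B n` every vector can be approximated
  by vectors `v` admitting a closed finite-codimensional `G` with
  `√(4‖v‖² + ‖y‖²) ≤ ‖v + y‖ + ‖v - y‖` for all `y ∈ G`, then in the `ℓ²`-sum `lp B 2`, for every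
  unit `x`, `t > 0` and `η > 0` there is a closed finite-codimensional `F` with
  `√(4 + t²) - η ≤ ‖x + t • y‖ + ‖x - t • y‖` for all unit `y ∈ F`.
* `block_hyp`: the block hypothesis for a tree-potential space `space Extra`, from the two
  statements (A1) (`block_ineq`) and (A2) (`dense`) of the TREE-AMUC module.
* `sum_midpoint_of`: the conclusion for `Tree.SumSpace`, with (A1), (A2) for the blocks as
  hypotheses.
-/

set_option autoImplicit false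

namespace Crest.Agent.Helper28

open Crest.Agent.Helper7

/-! ### Elementary real inequalities -/

/-- Minkowski's inequality for finite sums of squares. -/
theorem sqrt_sum_add_sq_le {ι : Type*} (s : Finset ι) (f g : ι → ℝ) :
    Real.sqrt (∑ i ∈ s, (f i + g i) ^ 2)
      ≤ Real.sqrt (∑ i ∈ s, f i ^ 2) + Real.sqrt (∑ i ∈ s, g i ^ 2) := by
  have hcs := Real.sum_mul_le_sqrt_mul_sqrt s f g
  have hf : 0 ≤ ∑ i ∈ s, f i ^ 2 := Finset.sum_nonneg fun i _ => sq_nonneg _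
  have hg : 0 ≤ ∑ i ∈ s, g i ^ 2 := Finset.sum_nonneg fun i _ => sq_nonneg _
  rw [Real.sqrt_le_iff]
  refine ⟨add_nonneg (Real.sqrt_nonneg _) (Real.sqrt_nonneg _), ?_⟩
  have e : ∑ i ∈ s, (f i + g i) ^ 2
      = ∑ i ∈ s, f i ^ 2 + 2 * ∑ i ∈ s, f i * g i + ∑ i ∈ s, g i ^ 2 := by
    rw [Finset.mul_sum, ← Finset.sum_add_distrib, ← Finset.sum_add_distrib]
    exact Finset.sum_congr rfl fun i _ => by ring
  rw [e, add_sq, Real.sq_sqrt hf, Real.sq_sqrt hg]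
  linarith

/-- Minkowski's inequality for three summands. -/
theorem sqrt_sum_add3_sq_le {ι : Type*} (s : Finset ι) (f g h : ι → ℝ) :
    Real.sqrt (∑ i ∈ s, (f i + g i + h i) ^ 2)
      ≤ Real.sqrt (∑ i ∈ s, f i ^ 2) + Real.sqrt (∑ i ∈ s, g i ^ 2)
        + Real.sqrt (∑ i ∈ s, h i ^ 2) := by
  have h1 := sqrt_sum_add_sq_le s (fun i => f i + g i) h
  have h2 := sqrt_sum_add_sq_le s f g
  linarith

/-- `u ↦ √(4u² + w²)` is `2`-Lipschitz. -/
theorem sqrt_lip (u u' w : ℝ) :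
    Real.sqrt (4 * u ^ 2 + w ^ 2) ≤ Real.sqrt (4 * u' ^ 2 + w ^ 2) + 2 * |u - u'| := by
  have hA0 : 0 ≤ Real.sqrt (4 * u' ^ 2 + w ^ 2) := Real.sqrt_nonneg _
  have hA2 : Real.sqrt (4 * u' ^ 2 + w ^ 2) ^ 2 = 4 * u' ^ 2 + w ^ 2 :=
    Real.sq_sqrt (by positivity)
  have hAu : 2 * |u'| ≤ Real.sqrt (4 * u' ^ 2 + w ^ 2) := by
    apply Real.le_sqrt_of_sq_le
    rw [mul_pow, sq_abs]
    nlinarith [sq_nonneg w]
  generalize Real.sqrt (4 * u' ^ 2 + w ^ 2) = A at hA0 hA2 hAu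
  rw [Real.sqrt_le_iff]
  refine ⟨by positivity, ?_⟩
  have h1 : |u - u'| ^ 2 = (u - u') ^ 2 := sq_abs _
  have h2 : u' * (u - u') ≤ |u'| * |u - u'| := by
    calc u' * (u - u') ≤ |u' * (u - u')| := le_abs_self _
      _ = |u'| * |u - u'| := abs_mul _ _
  have h3 : 2 * |u'| * |u - u'| ≤ A * |u - u'| :=
    mul_le_mul_of_nonneg_right hAu (abs_nonneg _)
  have h4 : (A + 2 * |u - u'|) ^ 2 = A ^ 2 + 4 * (A * |u - u'|) + 4 * |u - u'| ^ 2 := by ring
  rw [h4, hA2, h1]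
  nlinarith

theorem sqrt_le_add {p q : ℝ} (hp : 0 ≤ p) (hq : 0 ≤ q) :
    Real.sqrt (4 * p ^ 2 + q ^ 2) ≤ 2 * p + q := by
  rw [Real.sqrt_le_iff]
  exact ⟨by positivity, by nlinarith [mul_nonneg hp hq]⟩

/-! ### Finite intersections of closed finite-codimensional subspaces -/

theorem isCof_forall_mem {V : Type*} [NormedAddCommGroup V] [NormedSpace ℝ V] {ι : Type*}
    (s : Finset ι) (F : ι → Set V) (h : ∀ i ∈ s, AUC.IsCof (F i)) :
    AUC.IsCof {y : V | ∀ i ∈ s, y ∈ F i} := by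
  classical
  induction s using Finset.induction_on with
  | empty =>
    have : {y : V | ∀ i ∈ (∅ : Finset ι), y ∈ F i} = Set.univ := by
      ext y; simp
    rw [this]
    exact AUC.isCof_univ
  | insert a s ha ih =>
    have : {y : V | ∀ i ∈ insert a s, y ∈ F i} = F a ∩ {y : V | ∀ i ∈ s, y ∈ F i} := by
      ext y; simp
    rw [this]
    exact (h a (Finset.mem_insert_self a s)).inter
      (ih fun i hi => h i (Finset.mem_insert_of_mem hi))

/-! ### The generic `ℓ²`-sum statement -/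

section lpsum

variable {B : ℕ → Type*} [∀ n, NormedAddCommGroup (B n)] [∀ n, NormedSpace ℝ (B n)]

omit [∀ n, NormedSpace ℝ (B n)] in
theorem lp_two_hasSum (x : lp B 2) : HasSum (fun n => ‖x n‖ ^ 2) (‖x‖ ^ 2) := by
  have h := lp.hasSum_norm (p := 2) (by norm_num) x
  simpa using h

omit [∀ n, NormedSpace ℝ (B n)] in
theorem lp_two_sum_le (x : lp B 2) (s : Finset ℕ) : ∑ n ∈ s, ‖x n‖ ^ 2 ≤ ‖x‖ ^ 2 :=
  sum_le_hasSum s (fun _ _ => sq_nonneg _) (lp_two_hasSum x)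

/-- **Midpoint estimate in an `ℓ²`-sum.** -/
theorem lp_two_midpoint
    (hblock : ∀ (n : ℕ) (x : B n) (ε : ℝ), 0 < ε → ∃ (v : B n) (G : Set (B n)),
      AUC.IsCof G ∧ ‖x - v‖ < ε ∧
        ∀ y ∈ G, Real.sqrt (4 * ‖v‖ ^ 2 + ‖y‖ ^ 2) ≤ ‖v + y‖ + ‖v - y‖)
    {t η : ℝ} (ht : 0 < t) (x : lp B 2) (hx : ‖x‖ = 1) (hη : 0 < η) :
    ∃ F : Set (lp B 2), AUC.IsCof F ∧ ∀ y ∈ F, ‖y‖ = 1 →
      Real.sqrt (4 + t ^ 2) - η ≤ ‖x + t • y‖ + ‖x - t • y‖ := by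
  set δ : ℝ := η / 3 with hδ
  have hδ0 : 0 < δ := by positivity
  have hsx := lp_two_hasSum x
  rw [hx, one_pow] at hsx
  obtain ⟨m, hm⟩ : ∃ m, 1 - δ ^ 2 < ∑ n ∈ Finset.range m, ‖x n‖ ^ 2 := by
    have h1 : (1 : ℝ) - δ ^ 2 < 1 := by nlinarith
    exact (hsx.tendsto_sum_nat.eventually (lt_mem_nhds h1)).exists
  set ε : ℝ := δ / (4 * (m + 1)) with hε
  have hε0 : 0 < ε := by positivity
  choose v G hG hxv hineq using fun n => hblock n (x n) ε hε0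
  refine ⟨{y : lp B 2 | ∀ n ∈ Finset.range m, y ∈ (lp.evalCLM ℝ B 2 n) ⁻¹' (G n)},
    isCof_forall_mem _ _ (fun n _ => (hG n).preimage (lp.evalCLM ℝ B 2 n)), ?_⟩
  intro y hyF hy1
  have hyG : ∀ n, n < m → y n ∈ G n := fun n hn => hyF n (Finset.mem_range.2 hn)
  have hsy := lp_two_hasSum y
  rw [hy1, one_pow] at hsy
  -- the real sequences
  let a : ℕ → ℝ := fun n => ‖(x + t • y) n‖
  let b : ℕ → ℝ := fun n => ‖(x - t • y) n‖
  let r : ℕ → ℝ := fun n => if n < m then 4 * ε else 2 * ‖x n‖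
  let g : ℕ → ℝ := fun n => Real.sqrt (4 * ‖x n‖ ^ 2 + t ^ 2 * ‖y n‖ ^ 2)
  have hr1 : ∀ n, n < m → r n = 4 * ε := fun n hn => if_pos hn
  have hr2 : ∀ n, ¬ n < m → r n = 2 * ‖x n‖ := fun n hn => if_neg hn
  have hpt : ∀ n, g n ≤ a n + b n + r n := by
    intro n
    have ea : a n = ‖x n + t • y n‖ := rfl
    have eb : b n = ‖x n - t • y n‖ := rfl
    have eg : g n = Real.sqrt (4 * ‖x n‖ ^ 2 + (t * ‖y n‖) ^ 2) := by
      have h6 : t ^ 2 * ‖y n‖ ^ 2 = (t * ‖y n‖) ^ 2 := by ring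
      show Real.sqrt (4 * ‖x n‖ ^ 2 + t ^ 2 * ‖y n‖ ^ 2) = _
      rw [h6]
    rw [ea, eb, eg]
    by_cases hn : n < m
    · rw [hr1 n hn]
      have h1 := hineq n (t • y n) ((hG n).smul_mem t (hyG n hn))
      rw [norm_smul, Real.norm_of_nonneg ht.le] at h1
      have h2 := sqrt_lip ‖x n‖ ‖v n‖ (t * ‖y n‖)
      have h3 : |‖x n‖ - ‖v n‖| ≤ ‖x n - v n‖ := abs_norm_sub_norm_le _ _
      have h4 : ‖v n + t • y n‖ ≤ ‖x n + t • y n‖ + ‖x n - v n‖ := by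
        have : v n + t • y n = (x n + t • y n) - (x n - v n) := by abel
        rw [this]
        exact norm_sub_le _ _
      have h5 : ‖v n - t • y n‖ ≤ ‖x n - t • y n‖ + ‖x n - v n‖ := by
        have : v n - t • y n = (x n - t • y n) - (x n - v n) := by abel
        rw [this]
        exact norm_sub_le _ _
      linarith [hxv n]
    · rw [hr2 n hn]
      have h1 : Real.sqrt (4 * ‖x n‖ ^ 2 + (t * ‖y n‖) ^ 2) ≤ 2 * ‖x n‖ + t * ‖y n‖ :=
        sqrt_le_add (norm_nonneg _) (by positivity)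
      have h2 : 2 * (t * ‖y n‖) ≤ ‖x n + t • y n‖ + ‖x n - t • y n‖ := by
        have h7 : (2 * t) • y n = (x n + t • y n) - (x n - t • y n) := by module
        calc 2 * (t * ‖y n‖) = ‖(2 * t) • y n‖ := by
              rw [norm_smul, Real.norm_of_nonneg (by positivity)]
              ring
          _ = ‖(x n + t • y n) - (x n - t • y n)‖ := by rw [h7]
          _ ≤ _ := norm_sub_le _ _
      linarith [norm_nonneg (x n + t • y n), norm_nonneg (x n - t • y n)]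
  have hg0 : ∀ n, 0 ≤ g n := fun n => Real.sqrt_nonneg _
  -- the bound for the finite sums
  have hfin : ∀ M, m ≤ M → Real.sqrt (∑ n ∈ Finset.range M, g n ^ 2)
      ≤ ‖x + t • y‖ + ‖x - t • y‖ + η := by
    intro M hM
    have h1 : Real.sqrt (∑ n ∈ Finset.range M, g n ^ 2)
        ≤ Real.sqrt (∑ n ∈ Finset.range M, (a n + b n + r n) ^ 2) :=
      Real.sqrt_le_sqrt (Finset.sum_le_sum fun n _ => pow_le_pow_left₀ (hg0 n) (hpt n) 2)
    have h2 := sqrt_sum_add3_sq_le (Finset.range M) a b r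
    have h3 : Real.sqrt (∑ n ∈ Finset.range M, a n ^ 2) ≤ ‖x + t • y‖ := by
      rw [← Real.sqrt_sq (norm_nonneg (x + t • y))]
      exact Real.sqrt_le_sqrt (lp_two_sum_le (x + t • y) _)
    have h4 : Real.sqrt (∑ n ∈ Finset.range M, b n ^ 2) ≤ ‖x - t • y‖ := by
      rw [← Real.sqrt_sq (norm_nonneg (x - t • y))]
      exact Real.sqrt_le_sqrt (lp_two_sum_le (x - t • y) _)
    have h5 : Real.sqrt (∑ n ∈ Finset.range M, r n ^ 2) ≤ η := by
      rw [Real.sqrt_le_iff]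
      refine ⟨hη.le, ?_⟩
      rw [← Finset.sum_range_add_sum_Ico _ hM]
      have e1 : ∑ n ∈ Finset.range m, r n ^ 2 = (m : ℝ) * (4 * ε) ^ 2 := by
        rw [Finset.sum_congr rfl (g := fun _ => (4 * ε) ^ 2)
          (fun n hn => by rw [hr1 n (Finset.mem_range.1 hn)])]
        rw [Finset.sum_const, Finset.card_range, nsmul_eq_mul]
      have e2 : ∑ n ∈ Finset.Ico m M, r n ^ 2 = 4 * ∑ n ∈ Finset.Ico m M, ‖x n‖ ^ 2 := by
        rw [Finset.mul_sum]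
        refine Finset.sum_congr rfl fun n hn => ?_
        rw [hr2 n (not_lt.2 (Finset.mem_Ico.1 hn).1)]
        ring
      have e3 : ∑ n ∈ Finset.Ico m M, ‖x n‖ ^ 2 ≤ δ ^ 2 := by
        have h := Finset.sum_range_add_sum_Ico (fun n => ‖x n‖ ^ 2) hM
        have h' : ∑ n ∈ Finset.range M, ‖x n‖ ^ 2 ≤ 1 := by
          have := lp_two_sum_le x (Finset.range M)
          rwa [hx, one_pow] at this
        linarith
      have e4 : (m : ℝ) * (4 * ε) ^ 2 ≤ δ ^ 2 := by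
        have hm0 : (0 : ℝ) ≤ m := Nat.cast_nonneg m
        have hm1 : (0 : ℝ) < (m : ℝ) + 1 := by positivity
        have e5 : (m : ℝ) * (4 * ε) ^ 2 = δ ^ 2 * ((m : ℝ) / ((m : ℝ) + 1) ^ 2) := by
          rw [hε]
          field_simp
        rw [e5]
        have e6 : (m : ℝ) / ((m : ℝ) + 1) ^ 2 ≤ 1 := by
          rw [div_le_one (by positivity)]
          nlinarith
        nlinarith [sq_nonneg δ]
      rw [e1, e2]
      have e7 : η ^ 2 = 9 * δ ^ 2 := by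
        rw [hδ]
        ring
      nlinarith [sq_nonneg δ]
    linarith
  -- pass to the limit
  have hgsq : ∀ n, g n ^ 2 = 4 * ‖x n‖ ^ 2 + t ^ 2 * ‖y n‖ ^ 2 :=
    fun n => Real.sq_sqrt (by positivity)
  have hsum : HasSum (fun n => g n ^ 2) (4 * 1 + t ^ 2 * 1) := by
    have hfun : (fun n => g n ^ 2) = fun n => 4 * ‖x n‖ ^ 2 + t ^ 2 * ‖y n‖ ^ 2 := funext hgsq
    rw [hfun]
    exact (hsx.mul_left 4).add (hsy.mul_left (t ^ 2))
  have hlim : Filter.Tendsto (fun M => Real.sqrt (∑ n ∈ Finset.range M, g n ^ 2)) Filter.atTop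
      (nhds (Real.sqrt (4 * 1 + t ^ 2 * 1))) :=
    (Real.continuous_sqrt.tendsto _).comp hsum.tendsto_sum_nat
  have hfinal := le_of_tendsto hlim (Filter.eventually_atTop.2 ⟨m, hfin⟩)
  rw [mul_one, mul_one] at hfinal
  linarith

end lpsum

/-! ### The tree-potential blocks -/

section tree

open Crest.Agent.Helper7.Tree

/-- The block hypothesis of `lp_two_midpoint` for a tree-potential space, from (A1) and (A2). -/
theorem block_hyp {Extra : (List ℕ → ℝ) → Prop}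
    (hA1 : ∀ (T₀ : Finset (List ℕ)), (∀ s ∈ T₀, ∀ u, u <:+ s → u ∈ T₀) →
      ∀ (c : List ℕ → ℝ) (y : space Extra),
      (∀ s ∈ T₀, ∀ hs : IsT Extra (Pi.single s 1),
        evalT Extra ⟨Pi.single s 1, hs⟩ y = 0) →
      Real.sqrt (4 * ‖vec Extra T₀ c‖ ^ 2 + ‖y‖ ^ 2)
        ≤ ‖vec Extra T₀ c + y‖ + ‖vec Extra T₀ c - y‖)
    (hA2 : ∀ (x : space Extra) (ε : ℝ), 0 < ε → ∃ (T₀ : Finset (List ℕ)) (c : List ℕ → ℝ),
      (∀ s ∈ T₀, ∀ u, u <:+ s → u ∈ T₀) ∧ ‖x - vec Extra T₀ c‖ < ε)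
    (x : space Extra) (ε : ℝ) (hε : 0 < ε) :
    ∃ (v : space Extra) (G : Set (space Extra)), AUC.IsCof G ∧ ‖x - v‖ < ε ∧
        ∀ y ∈ G, Real.sqrt (4 * ‖v‖ ^ 2 + ‖y‖ ^ 2) ≤ ‖v + y‖ + ‖v - y‖ := by
  obtain ⟨T₀, c, hcl, hxv⟩ := hA2 x ε hε
  let φ : ↥T₀ → space Extra →L[ℝ] ℝ := fun s =>
    haveI := Classical.propDecidable (IsT Extra (Pi.single s.1 1))
    if hs : IsT Extra (Pi.single s.1 1) then evalT Extra ⟨Pi.single s.1 1, hs⟩ else 0
  refine ⟨vec Extra T₀ c, {y | ∀ i, φ i y = 0}, AUC.isCof_iInter_ker φ, hxv, ?_⟩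
  intro y hy
  refine hA1 T₀ hcl c y ?_
  intro s hs hsT
  have h := hy ⟨s, hs⟩
  simp only [φ, dif_pos hsT] at h
  exact h

/-- **S0166-SUMMOD**, with the block statements (A1), (A2) as hypotheses. -/
theorem sum_midpoint_of
    (hA1 : ∀ (n : ℕ) (T₀ : Finset (List ℕ)), (∀ s ∈ T₀, ∀ u, u <:+ s → u ∈ T₀) →
      ∀ (c : List ℕ → ℝ) (y : Block n),
      (∀ s ∈ T₀, ∀ hs : IsT (ExtraH n) (Pi.single s 1),
        evalT (ExtraH n) ⟨Pi.single s 1, hs⟩ y = 0) →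
      Real.sqrt (4 * ‖vec (ExtraH n) T₀ c‖ ^ 2 + ‖y‖ ^ 2)
        ≤ ‖vec (ExtraH n) T₀ c + y‖ + ‖vec (ExtraH n) T₀ c - y‖)
    (hA2 : ∀ (n : ℕ) (x : Block n) (ε : ℝ), 0 < ε →
      ∃ (T₀ : Finset (List ℕ)) (c : List ℕ → ℝ),
        (∀ s ∈ T₀, ∀ u, u <:+ s → u ∈ T₀) ∧ ‖x - vec (ExtraH n) T₀ c‖ < ε)
    {t η : ℝ} (ht : 0 < t) (x : SumSpace) (hx : ‖x‖ = 1) (hη : 0 < η) :
    ∃ F : Set SumSpace, AUC.IsCof F ∧ ∀ y ∈ F, ‖y‖ = 1 →
      Real.sqrt (4 + t ^ 2) - η ≤ ‖x + t • y‖ + ‖x - t • y‖ :=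
  lp_two_midpoint (fun n x ε hε => block_hyp (hA1 n) (hA2 n) x ε hε) ht x hx hη

end tree

end Crest.Agent.Helper28
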